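import Vale.Agent.Lib.P310.WL

/-!
# Probe lower bound for deciding k-WL equivalence (P310)
-/

namespace Vale.Agent.Lib.P310

open ProbeTree

variable {n : ℕ}

/-- The graph on `Fin n` with the single edge `{u, v}` (empty if `u = v`). -/
def oneEdge (u v : Fin n) : SimpleGraph (Fin n) := SimpleGraph.fromEdgeSet {s(u, v)}

theorem oneEdge_adj (u v a b : Fin n) :
    (oneEdge u v).Adj a b ↔ ((a = u ∧ b = v) ∨ (a = v ∧ b = u)) ∧ a ≠ b := by
  unfold oneEdge
  rw [SimpleGraph.fromEdgeSet_adj]
  simp

/-- WL equivalence is reflexive. -/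
theorem wlEquiv_refl (k : ℕ) (G : SimpleGraph (Fin n)) : WLEquiv k G G := fun _ => rfl

/-- A graph with an edge is not `k`-WL equivalent (for `k ≥ 2`) to the empty graph. -/
theorem not_wlEquiv_oneEdge_bot {k : ℕ} (hk : 2 ≤ k) {u v : Fin n} (huv : u ≠ v) :
    ¬ WLEquiv k (oneEdge u v) (⊥ : SimpleGraph (Fin n)) := by
  intro h
  have h0 := h 0
  -- the tuple (u, v, v, ..., v)
  let i0 : Fin k := ⟨0, by omega⟩
  let i1 : Fin k := ⟨1, by omega⟩
  let x : Fin k → Fin n := fun i => if i = i0 then u else v
  have hx : wlColor (oneEdge u v) k 0 x ∈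
      (Finset.univ : Finset (Fin k → Fin n)).val.map (wlColor (oneEdge u v) k 0) :=
    Multiset.mem_map_of_mem _ (Finset.mem_univ_val x)
  rw [h0] at hx
  obtain ⟨y, _, hy⟩ := Multiset.mem_map.mp hx
  have h2 : (wlColor (⊥ : SimpleGraph (Fin n)) k 0 y).2 i0 i1 =
      (wlColor (oneEdge u v) k 0 x).2 i0 i1 := by rw [hy]
  have hne : i1 ≠ i0 := by
    intro hh
    have := congrArg Fin.val hh
    simp [i0, i1] at this
  have hL : (wlColor (⊥ : SimpleGraph (Fin n)) k 0 y).2 i0 i1 = False := by
    simp [wlColor]
  have hR : (wlColor (oneEdge u v) k 0 x).2 i0 i1 = True := by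
    simp only [wlColor, x, if_pos, if_neg hne, eq_iff_iff, iff_true]
    rw [oneEdge_adj]
    exact ⟨Or.inl ⟨rfl, rfl⟩, huv⟩
  rw [hL, hR] at h2
  exact false_ne_true h2

theorem not_wlEquiv_bot_oneEdge {k : ℕ} (hk : 2 ≤ k) {u v : Fin n} (huv : u ≠ v) :
    ¬ WLEquiv k (⊥ : SimpleGraph (Fin n)) (oneEdge u v) := by
  intro h
  exact not_wlEquiv_oneEdge_bot hk huv (fun r => (h r).symm)

/-- Adversary inputs, indexed by ordered pairs `e = (u, v)` of distinct vertices:
if `u < v` the first graph is the single edge `{u, v}` and the second is empty;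
if `v < u` the first graph is empty and the second is the single edge. -/
def advFst (e : Fin n × Fin n) : SimpleGraph (Fin n) :=
  if e.1 < e.2 then oneEdge e.1 e.2 else ⊥

def advSnd (e : Fin n × Fin n) : SimpleGraph (Fin n) :=
  if e.1 < e.2 then ⊥ else oneEdge e.1 e.2

/-- The ordered pair encoding the entry read by a probe. -/
def probeCode (first : Bool) (a b : Fin n) : Fin n × Fin n :=
  if first = true then (min a b, max a b) else (max a b, min a b)

theorem entry_bot (first : Bool) (a b : Fin n) :
    ¬ entry (⊥ : SimpleGraph (Fin n)) ⊥ first a b := by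
  unfold entry
  split_ifs <;> simp

theorem entry_adv {e : Fin n × Fin n} (he : e.1 ≠ e.2) (first : Bool) (a b : Fin n)
    (hne : e ≠ probeCode first a b) : ¬ entry (advFst e) (advSnd e) first a b := by
  obtain ⟨u, v⟩ := e
  simp only at he
  unfold entry advFst advSnd
  intro hent
  apply hne
  unfold probeCode
  rcases lt_or_gt_of_ne he with hlt | hgt
  · simp only [hlt, if_true] at hent
    cases first with
    | true =>
      simp only [if_true] at hent ⊢
      rw [oneEdge_adj] at hent
      rcases hent.1 with ⟨rfl, rfl⟩ | ⟨rfl, rfl⟩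
      · rw [min_eq_left hlt.le, max_eq_right hlt.le]
      · rw [min_eq_right hlt.le, max_eq_left hlt.le]
    | false =>
      simp at hent
  · have hnlt : ¬ u < v := not_lt.mpr hgt.le
    simp only [hnlt, if_false] at hent
    cases first with
    | true =>
      simp at hent
    | false =>
      simp only [Bool.false_eq_true, if_false] at hent ⊢
      rw [oneEdge_adj] at hent
      rcases hent.1 with ⟨rfl, rfl⟩ | ⟨rfl, rfl⟩
      · rw [min_eq_right hgt.le, max_eq_left hgt.le]
      · rw [min_eq_left hgt.le, max_eq_right hgt.le]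

/-- Adversary lemma: if a probe tree answers `true` on the pair of empty graphs and `false` on
every adversary input indexed by `U` (a set of ordered pairs of distinct vertices), then its
depth is at least `|U|`. -/
theorem card_le_depth (T : ProbeTree n) :
    ∀ U : Finset (Fin n × Fin n), (∀ e ∈ U, e.1 ≠ e.2) →
      T.Accepts ⊥ ⊥ → (∀ e ∈ U, ¬ T.Accepts (advFst e) (advSnd e)) → U.card ≤ T.depth := by
  induction T with
  | answer b =>
    intro U _ hacc hrej
    have hU : U = ∅ := by
      by_contra hne
      obtain ⟨e, he⟩ := Finset.nonempty_iff_ne_empty.mpr hne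
      exact hrej e he hacc
    simp [hU]
  | probe first a b yes no _ ihno =>
    intro U hU hacc hrej
    -- on the empty pair and on every adversary input other than the probed one, the probe
    -- answers 0, so the tree continues with `no`
    have hacc' : no.Accepts ⊥ ⊥ := by
      rcases hacc with ⟨h1, _⟩ | ⟨_, h2⟩
      · exact absurd h1 (entry_bot first a b)
      · exact h2
    have hrej' : ∀ e ∈ U.erase (probeCode first a b), ¬ no.Accepts (advFst e) (advSnd e) := by
      intro e he hno
      have heU := Finset.mem_of_mem_erase he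
      have hne := Finset.ne_of_mem_erase he
      exact hrej e heU (Or.inr ⟨entry_adv (hU e heU) first a b hne, hno⟩)
    have hU' : ∀ e ∈ U.erase (probeCode first a b), e.1 ≠ e.2 :=
      fun e he => hU e (Finset.mem_of_mem_erase he)
    have h1 := ihno (U.erase (probeCode first a b)) hU' hacc' hrej'
    have h2 : U.card ≤ (U.erase (probeCode first a b)).card + 1 := by
      have := Finset.pred_card_le_card_erase (s := U) (a := probeCode first a b)
      omega
    have h3 : no.depth ≤ max yes.depth no.depth := le_max_right _ _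
    show U.card ≤ 1 + max yes.depth no.depth
    omega

/-- Every probe tree deciding `k`-WL equivalence (`k ≥ 2`) of pairs of `n`-vertex graphs has
depth at least `n * (n - 1)`. -/
theorem probe_lower_bound {k : ℕ} (hk : 2 ≤ k) (T : ProbeTree n)
    (hT : ∀ G H : SimpleGraph (Fin n), T.Accepts G H ↔ WLEquiv k G H) :
    n * (n - 1) ≤ T.depth := by
  have hcard : (Finset.univ : Finset (Fin n)).offDiag.card = n * (n - 1) := by
    rw [Finset.offDiag_card]
    simp [Nat.mul_sub]
  rw [← hcard]
  refine card_le_depth T _ ?_ ?_ ?_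
  · intro e he
    exact (Finset.mem_offDiag.mp he).2.2
  · exact (hT ⊥ ⊥).mpr (wlEquiv_refl k ⊥)
  · intro e he hacc
    have hne : e.1 ≠ e.2 := (Finset.mem_offDiag.mp he).2.2
    have hW := (hT _ _).mp hacc
    unfold advFst advSnd at hW
    by_cases hlt : e.1 < e.2
    · simp only [hlt, if_true] at hW
      exact not_wlEquiv_oneEdge_bot hk hne hW
    · simp only [hlt, if_false] at hW
      exact not_wlEquiv_bot_oneEdge hk hne hW

end Vale.Agent.Lib.P310
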