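import Mathlib

/-!
# k-dimensional (joint-update) Weisfeiler-Leman refinement and probe trees (P310)
-/

namespace Vale.Agent.Lib.P310

/-- The type of colors of `k`-tuples after `r` rounds of refinement.  Round `0` colors are
atomic types (a pair of relations on positions: which entries are equal, which are adjacent);
a round `r + 1` color is a pair consisting of a round `r` color and a multiset of `k`-tuples of
round `r` colors.  Colors are these data themselves, so they are common to all graphs. -/
def Color (k : ℕ) : ℕ → Type
  | 0 => (Fin k → Fin k → Prop) × (Fin k → Fin k → Prop)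
  | (r + 1) => Color k r × Multiset (Fin k → Color k r)

/-- The color `C_r(x)` of the tuple `x` after `r` rounds of `k`-dimensional joint-update
Weisfeiler-Leman refinement on the graph `G`:
`C_0(x)` is the atomic type of `x`, and
`C_{r+1}(x) = (C_r(x), {{ (C_r(x[1 ← y]), ..., C_r(x[k ← y])) : y ∈ V }})`. -/
noncomputable def wlColor {V : Type} [Fintype V] [DecidableEq V] (G : SimpleGraph V) (k : ℕ) :
    (r : ℕ) → (Fin k → V) → Color k r
  | 0, x => ((fun i j => x i = x j), (fun i j => G.Adj (x i) (x j)))
  | (r + 1), x =>
      (wlColor G k r x,
        (Finset.univ : Finset V).val.map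
          (fun y => fun i => wlColor G k r (Function.update x i y)))

/-- `G ≡_k H`: for every round `r`, the multisets of round-`r` colors of all `k`-tuples of the
two graphs coincide. -/
def WLEquiv {V W : Type} [Fintype V] [DecidableEq V] [Fintype W] [DecidableEq W]
    (k : ℕ) (G : SimpleGraph V) (H : SimpleGraph W) : Prop :=
  ∀ r : ℕ, (Finset.univ : Finset (Fin k → V)).val.map (wlColor G k r) =
    (Finset.univ : Finset (Fin k → W)).val.map (wlColor H k r)

/-- A deterministic adaptive probe algorithm (decision tree) for pairs of graphs on the vertex
set `Fin n` given by their adjacency matrices.  An inner node `probe first u v yes no` reads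
the entry `(u, v)` of the adjacency matrix of the first graph (if `first = true`) or of the
second graph (if `first = false`), and continues with `yes` if the entry is `1` (adjacent) and
with `no` otherwise; a leaf `answer b` outputs `b`. -/
inductive ProbeTree (n : ℕ) : Type
  | answer (b : Bool) : ProbeTree n
  | probe (first : Bool) (u v : Fin n) (yes no : ProbeTree n) : ProbeTree n

namespace ProbeTree

variable {n : ℕ}

/-- The entry read by a probe. -/
def entry (G H : SimpleGraph (Fin n)) (first : Bool) (u v : Fin n) : Prop :=
  if first = true then G.Adj u v else H.Adj u v

/-- `T.Accepts G H`: the tree `T` outputs `true` on the input pair `(G, H)`. -/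
def Accepts : ProbeTree n → SimpleGraph (Fin n) → SimpleGraph (Fin n) → Prop
  | answer b, _, _ => b = true
  | probe first u v yes no, G, H =>
      (entry G H first u v ∧ Accepts yes G H) ∨ (¬ entry G H first u v ∧ Accepts no G H)

/-- Worst-case number of probes. -/
def depth : ProbeTree n → ℕ
  | answer _ => 0
  | probe _ _ _ yes no => 1 + max (depth yes) (depth no)

end ProbeTree

end Vale.Agent.Lib.P310
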